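import Vale.Agent.P220.R2.H57.B.Defs

/-!
# P220: quotients of the sphere and the pullback of a subset of the cotangent bundle
-/

open Set
open scoped ContDiff

namespace Vale.Agent.P220.R2.H57Q

open H57

variable {E : Type} [NormedAddCommGroup E] [InnerProductSpace ℝ E]
  {E' : Type} [NormedAddCommGroup E'] [InnerProductSpace ℝ E']

/-- `P` restricts to a smooth submersion of the unit sphere `S` of `E` onto `Q`, and its fibres are
the orbits of the linear isometries in `Γ`: in this sense `Q` is the quotient of `S` by `Γ`. -/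
structure IsSphereQuotient (Q : Set E') (P : E → E') (Γ : Set (E ≃ₗᵢ[ℝ] E)) : Prop where
  /-- `P` is smooth -/
  smooth : ContDiff ℝ ∞ P
  /-- `P` maps the sphere onto `Q` -/
  image : P '' Metric.sphere (0 : E) 1 = Q
  /-- it is a submersion onto `Q` -/
  submersion : ∀ q ∈ Metric.sphere (0 : E) 1, ∀ v ∈ Tan Q (P q),
    ∃ u ∈ Tan (Metric.sphere (0 : E) 1) q, fderiv ℝ P q u = v
  /-- its fibres are the orbits of `Γ` -/
  fibres : ∀ x ∈ Metric.sphere (0 : E) 1, ∀ y ∈ Metric.sphere (0 : E) 1,
    P x = P y ↔ ∃ g ∈ Γ, g x = y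

/-- The pullback of the set `L` of covectors of `Q`: the covectors `(q, p)` of the unit sphere `S`
for which there is a covector `(P q, w)` in `L` with `p = w ∘ dP` on the tangent space of `S`. -/
def PullBack (P : E → E') (L : Set (E' × E')) : Set (E × E) :=
  {z | z ∈ Cot (Metric.sphere (0 : E) 1) ∧ ∃ w ∈ L, w.1 = P z.1 ∧
    ∀ v ∈ Tan (Metric.sphere (0 : E) 1) z.1, (inner ℝ z.2 v : ℝ) = inner ℝ w.2 (fderiv ℝ P z.1 v)}

end Vale.Agent.P220.R2.H57Q
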